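import Vale.Agent.P154q3.C.Assemble

open Filter Topology

namespace Vale.Agent.Results.P154.PottsAA3GWAll

/-- Three-state Potts channel, `0 ≤ λ < 1`: nonreconstruction at and below the Kesten-Stigum bound
`d λ² ≤ 1` on Galton-Watson trees, for every offspring law of full support with finite mean `d` and
for the Poisson law of every mean `d > 0`.  The series defining the error converge. -/
theorem result :
    (∀ off : ℕ → ℝ, (∀ N, 0 < off N) → HasSum off 1 → ∀ d : ℝ,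
      HasSum (fun N : ℕ => off N * (N : ℝ)) d → ∀ lam : ℝ, 0 ≤ lam → lam < 1 → d * lam ^ 2 ≤ 1 →
        Tendsto (Vale.Agent.P154.gwError 3 off lam) atTop (𝓝 0)) ∧
    (∀ d : ℝ, 0 < d → ∀ lam : ℝ, 0 ≤ lam → lam < 1 → d * lam ^ 2 ≤ 1 →
      Tendsto (Vale.Agent.P154.gwError 3 (Vale.Agent.P154.poissonOff d) lam) atTop (𝓝 0)) ∧
    (∀ (off : ℕ → ℝ) (lam : ℝ), (∀ N, 0 < off N) → HasSum off 1 → 0 ≤ lam → lam < 1 → ∀ n : ℕ,
      Summable fun ω : Vale.Agent.P154.Obs 3 n => Vale.Agent.P154.gwProb 3 off lam n ω *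
        ((1 / 2 : ℝ) * ∑ i : Fin 3, |Vale.Agent.P154.gwJoint 3 off lam n i ω /
          Vale.Agent.P154.gwProb 3 off lam n ω - 1 / ((3 : ℕ) : ℝ)|)) :=
  ⟨fun _ hoff hsum _ hm _ h0 h1 hdl => Vale.Agent.P154q3.C.final_gw hoff hsum hm h0 h1 hdl,
    fun _ hd _ h0 h1 hdl => Vale.Agent.P154q3.C.final_poisson hd h0 h1 hdl,
    fun _ _ hoff hsum h0 h1 n => Vale.Agent.P154q3.GW3.gwError_summable3 hoff hsum h0 h1 n⟩

end Vale.Agent.Results.P154.PottsAA3GWAll
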