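import Vale.Agent.P154q4.D5.GWFinal

open Filter Topology

namespace Vale.Agent.Results.P154.PottsAGWFourD5

/-- Four-state Potts channel, `λ ≥ 0`: nonreconstruction at and below the Kesten-Stigum bound
`d λ² ≤ 1` on rooted `d`-ary trees for `d ≥ 5`, and on Galton-Watson trees, with the Poisson law of
mean `d` or any offspring law of full support of mean `d`, for real `d ≥ 5`.  The series defining
the error on a Galton-Watson tree converge. -/
theorem result :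
    (∀ d : ℕ, 5 ≤ d → ∀ lam : ℝ, 0 ≤ lam → (d : ℝ) * lam ^ 2 ≤ 1 →
      Tendsto (Vale.Agent.P154.reconError 4 d lam) atTop (𝓝 0)) ∧
    (∀ d : ℝ, 5 ≤ d → ∀ lam : ℝ, 0 ≤ lam → d * lam ^ 2 ≤ 1 →
      Tendsto (Vale.Agent.P154.gwError 4 (Vale.Agent.P154.poissonOff d) lam) atTop (𝓝 0)) ∧
    (∀ off : ℕ → ℝ, (∀ N, 0 < off N) → HasSum off 1 → ∀ d : ℝ, 5 ≤ d →
      HasSum (fun N : ℕ => off N * (N : ℝ)) d → ∀ lam : ℝ, 0 ≤ lam → d * lam ^ 2 ≤ 1 →
        Tendsto (Vale.Agent.P154.gwError 4 off lam) atTop (𝓝 0)) ∧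
    (∀ (off : ℕ → ℝ) (lam : ℝ), (∀ N, 0 < off N) → HasSum off 1 → 0 ≤ lam → lam < 1 → ∀ n : ℕ,
      Summable fun ω : Vale.Agent.P154.Obs 4 n => Vale.Agent.P154.gwProb 4 off lam n ω *
        ((1 / 2 : ℝ) * ∑ i : Fin 4, |Vale.Agent.P154.gwJoint 4 off lam n i ω /
          Vale.Agent.P154.gwProb 4 off lam n ω - 1 / ((4 : ℕ) : ℝ)|)) :=
  ⟨fun d hd lam h0 hdl => Vale.Agent.P154q4.D5.final (d := d) hd h0 hdl,
    fun d hd lam h0 hdl => Vale.Agent.P154q4.D5.final_poisson hd h0 hdl,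
    fun off hoff hsum d hd hm lam h0 hdl => Vale.Agent.P154q4.D5.final_gw hoff hsum hd hm h0 hdl,
    fun off lam hoff hsum h0 h1 n => Vale.Agent.P154q4.GW4.gwError_summable4 hoff hsum h0 h1 n⟩

end Vale.Agent.Results.P154.PottsAGWFourD5
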