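import Vale.Agent.P154q4.D5.Assemble

open Filter Topology

/-- Four-state Potts channel with `λ ≥ 0` on the rooted `d`-ary tree, `d ≥ 5`: non-reconstruction
holds whenever `d λ² ≤ 1` (the reconstruction error tends to zero). -/
theorem Vale.Agent.Results.P154.PottsFourD5.result (d : ℕ) (hd : 5 ≤ d) (lam : ℝ) (h0 : 0 ≤ lam)
    (hdl : (d : ℝ) * lam ^ 2 ≤ 1) :
    Tendsto (Vale.Agent.P154.reconError 4 d lam) atTop (𝓝 0) :=
  Vale.Agent.P154q4.D5.final hd h0 hdl
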